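import Vale.Agent.P207.N3.H862.JC

/-!
# P207, line N3, R14: Busemann functions are smooth

`DG d G`: a distance function `d` on a vector space `V` (one chart), with infinitesimal form `G`,
differentiable off the diagonal. A function which is `1`-Lipschitz for `d` and grows with speed `1`
along a line `c` of `d` is differentiable along `c` with gradient `c'`: it lies between
`b q + r - d (·, c r)` and `b q + d (c (-r), ·) - r`, and equals both at `q = c 0`. No limit of
gradients and no Gauss lemma are used.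
-/

set_option linter.unusedSectionVars false

open Set Filter Topology
open scoped ContDiff

noncomputable section

namespace Vale.Agent.P207.N3.H265

variable {V : Type} [NormedAddCommGroup V] [NormedSpace ℝ V]

/-! ### two touching functions -/

/-- Two differentiable functions `lo ≤ hi` which touch have the same derivative. -/
theorem fderiv_eq_of_touch {lo hi : V → ℝ} {L L' : V →L[ℝ] ℝ} {q : V}
    (h : ∀ᶠ x in 𝓝 q, lo x ≤ hi x) (e : lo q = hi q) (d1 : HasFDerivAt lo L q)
    (d2 : HasFDerivAt hi L' q) : L = L' := by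
  have h1 : IsLocalMin (fun x => hi x - lo x) q := by
    filter_upwards [h] with x hx
    rw [e, sub_self]
    linarith
  have h2 := h1.hasFDerivAt_eq_zero (d2.sub d1)
  exact (sub_eq_zero.1 h2).symm

/-- A function between two differentiable functions which touch is differentiable. -/
theorem hasFDerivAt_squeeze {f lo hi : V → ℝ} {L : V →L[ℝ] ℝ} {q : V}
    (h1 : ∀ᶠ x in 𝓝 q, lo x ≤ f x) (h2 : ∀ᶠ x in 𝓝 q, f x ≤ hi x) (e1 : lo q = f q)
    (e2 : hi q = f q) (d1 : HasFDerivAt lo L q) (d2 : HasFDerivAt hi L q) :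
    HasFDerivAt f L q := by
  rw [hasFDerivAt_iff_isLittleO, Asymptotics.isLittleO_iff] at d1 d2 ⊢
  intro c hc
  filter_upwards [h1, h2, d1 hc, d2 hc] with x a1 a2 a3 a4
  rw [Real.norm_eq_abs] at a3 a4 ⊢
  rw [e1] at a3
  rw [e2] at a4
  rw [abs_le] at a3 a4 ⊢
  constructor
  · linarith [a3.1]
  · linarith [a4.2]

/-! ### the distance and its infinitesimal form -/

/-- A distance function in one chart, with infinitesimal form `G`. -/
structure DG (d : V → V → ℝ) (G : V → V →L[ℝ] V →L[ℝ] ℝ) : Prop where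
  symm : ∀ p q, d p q = d q p
  tri : ∀ p q r, d p r ≤ d p q + d q r
  /-- differentiable off the diagonal -/
  diff : ∀ p q, p ≠ q → DifferentiableAt ℝ (d p) q
  /-- short curves: the geodesic with initial vector `v` -/
  small : ∀ q v, ∃ c : ℝ → V, c 0 = q ∧ HasDerivAt c v 0 ∧
    ∀ t, 0 ≤ t → d q (c t) ≤ t * Real.sqrt (G q v v)
  G_symm : ∀ q v w, G q v w = G q w v
  G_nonneg : ∀ q v, 0 ≤ G q v v

namespace DG

variable {d : V → V → ℝ} {G : V → V →L[ℝ] V →L[ℝ] ℝ}

/-- the derivative of a Lipschitz function has norm at most one -/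
theorem deriv_le (D : DG d G) {f : V → ℝ} {L : V →L[ℝ] ℝ} {q : V} (hf : ∀ x, f x - f q ≤ d q x)
    (hd : HasFDerivAt f L q) (v : V) : L v ≤ Real.sqrt (G q v v) := by
  obtain ⟨c, c0, c1, c2⟩ := D.small q v
  have h1 : HasDerivAt (fun t => f (c t)) (L v) 0 := by
    have := (c0 ▸ hd : HasFDerivAt f L (c 0)).comp_hasDerivAt (0 : ℝ) c1
    exact this
  have h2 : Tendsto (fun t : ℝ => t⁻¹ * (f (c t) - f q)) (𝓝[>] 0) (𝓝 (L v)) := by
    have h3 := h1.tendsto_slope_zero_right
    simpa only [zero_add, c0, smul_eq_mul] using h3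
  refine le_of_tendsto h2 ?_
  filter_upwards [self_mem_nhdsWithin] with t ht
  have ht' : (0 : ℝ) < t := ht
  have h4 := (hf (c t)).trans (c2 t ht'.le)
  calc t⁻¹ * (f (c t) - f q) ≤ t⁻¹ * (t * Real.sqrt (G q v v)) :=
        mul_le_mul_of_nonneg_left h4 (inv_nonneg.2 ht'.le)
    _ = Real.sqrt (G q v v) := by field_simp

/-- The gradient: a functional of norm one which is `1` at a unit vector `w` is `G w`. -/
theorem grad_eq (D : DG d G) {L : V →L[ℝ] ℝ} {q w : V} (hL : ∀ v, L v ≤ Real.sqrt (G q v v))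
    (hw : G q w w = 1) (h1 : L w = 1) : L = G q w := by
  ext v
  have key : ∀ s : ℝ, |s| * |L v| < 1 → 2 * s * (L v - G q w v) ≤ s ^ 2 * (G q v v - L v ^ 2) := by
    intro s hs
    have h2 := hL (w + s • v)
    have h3 : L (w + s • v) = 1 + s * L v := by rw [map_add, map_smul, h1, smul_eq_mul]
    have h4 : G q (w + s • v) (w + s • v) = 1 + 2 * s * G q w v + s ^ 2 * G q v v := by
      simp only [map_add, map_smul, add_apply, smul_apply,
        smul_eq_mul, hw, D.G_symm q v w]
      ring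
    rw [h3, h4] at h2
    have h5 : 0 < 1 + s * L v := by
      have h6 : |s * L v| < 1 := by rwa [abs_mul]
      linarith [(abs_lt.1 h6).1]
    have h7 : (1 + s * L v) ^ 2 ≤ 1 + 2 * s * G q w v + s ^ 2 * G q v v := by
      have h8 : 0 ≤ 1 + 2 * s * G q w v + s ^ 2 * G q v v := by
        rw [← h4]; exact D.G_nonneg q _
      calc (1 + s * L v) ^ 2 ≤ Real.sqrt (1 + 2 * s * G q w v + s ^ 2 * G q v v) ^ 2 :=
            pow_le_pow_left₀ h5.le h2 2
        _ = _ := Real.sq_sqrt h8
    nlinarith [h7]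
  by_contra hne
  set a := L v - G q w v with ha
  have ha0 : a ≠ 0 := sub_ne_zero.2 hne
  set K := |G q v v - L v ^ 2| + |L v| + 1 with hK
  have hK0 : 0 < K := by positivity
  have ha1 : 0 < |a| := abs_pos.2 ha0
  -- s = ε * sign a
  set ε : ℝ := min (1 / (2 * K)) (|a| / K) with hε
  have hε0 : 0 < ε := lt_min (by positivity) (by positivity)
  have hεK : ε * K ≤ 1 / 2 := by
    have h2 : ε ≤ 1 / (2 * K) := min_le_left _ _
    calc ε * K ≤ 1 / (2 * K) * K := mul_le_mul_of_nonneg_right h2 hK0.le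
      _ = 1 / 2 := by field_simp
  have hεa : ε * K ≤ |a| := by
    have h2 : ε ≤ |a| / K := min_le_right _ _
    calc ε * K ≤ |a| / K * K := mul_le_mul_of_nonneg_right h2 hK0.le
      _ = |a| := by field_simp
  have hfin : ∀ s : ℝ, |s| = ε → s * a = ε * |a| → False := by
    intro s hs hsa
    have h2 : |s| * |L v| < 1 := by
      rw [hs]
      have h3 : |L v| ≤ K := by rw [hK]; linarith [abs_nonneg (G q v v - L v ^ 2)]
      calc ε * |L v| ≤ ε * K := mul_le_mul_of_nonneg_left h3 hε0.le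
        _ ≤ 1 / 2 := hεK
        _ < 1 := by norm_num
    have h3 := key s h2
    have h4 : s ^ 2 = ε ^ 2 := by rw [← sq_abs, hs]
    have h5 : s ^ 2 * (G q v v - L v ^ 2) ≤ ε ^ 2 * K := by
      rw [h4]
      refine mul_le_mul_of_nonneg_left ?_ (by positivity)
      rw [hK]
      linarith [le_abs_self (G q v v - L v ^ 2), abs_nonneg (L v)]
    have h6 : 2 * (ε * |a|) ≤ ε ^ 2 * K := by
      calc 2 * (ε * |a|) = 2 * s * a := by rw [← hsa]; ring
        _ ≤ _ := h3.trans h5
    have h7 : ε ^ 2 * K ≤ ε * |a| := by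
      calc ε ^ 2 * K = ε * (ε * K) := by ring
        _ ≤ ε * |a| := mul_le_mul_of_nonneg_left hεa hε0.le
    have h8 : 0 < ε * |a| := by positivity
    linarith
  rcases lt_or_gt_of_ne ha0 with h | h
  · exact hfin (-ε) (by rw [abs_neg, abs_of_pos hε0]) (by rw [abs_of_neg h]; ring)
  · exact hfin ε (abs_of_pos hε0) (by rw [abs_of_pos h])

/-- A Lipschitz function which is differentiable at a point of a curve along which it grows with
speed one. -/
theorem grad (D : DG d G) {f : V → ℝ} {L : V →L[ℝ] ℝ} {q w : V} (hf : ∀ x, f x - f q ≤ d q x)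
    (hd : HasFDerivAt f L q) {c : ℝ → V} (c0 : c 0 = q) (c1 : HasDerivAt c w 0)
    (hw : G q w w = 1) (hc : ∀ᶠ t in 𝓝 (0 : ℝ), f (c t) = f q + t) : HasFDerivAt f (G q w) q := by
  have h1 : HasDerivAt (fun t => f (c t)) (L w) 0 :=
    (c0 ▸ hd : HasFDerivAt f L (c 0)).comp_hasDerivAt (0 : ℝ) c1
  have h2 : HasDerivAt (fun t => f (c t)) 1 0 := by
    have h3 : HasDerivAt (fun t : ℝ => f q + t) 1 0 := (hasDerivAt_id (0 : ℝ)).const_add (f q)
    exact h3.congr_of_eventuallyEq hc
  have h3 : L w = 1 := h1.unique h2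
  have h4 := D.grad_eq (D.deriv_le hf hd) hw h3
  rwa [h4] at hd

/-- A unit speed line of `d`. -/
structure IsLine (d : V → V → ℝ) (c : ℝ → V) : Prop where
  eq : ∀ s t, d (c s) (c t) = |s - t|

/-- **First variation**: the distance from a point. -/
theorem hasFDerivAt_dist (D : DG d G) {c : ℝ → V} (hc : IsLine d c) {w : V}
    (c1 : HasDerivAt c w 0) (hw : G (c 0) w w = 1) {s : ℝ} (hs : s < 0) :
    HasFDerivAt (d (c s)) (G (c 0) w) (c 0) := by
  have h0 : d (c 0) (c 0) = 0 := by rw [hc.eq, sub_self, abs_zero]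
  have hne : c s ≠ c 0 := by
    intro h
    have h1 := hc.eq s 0
    rw [h, h0, sub_zero] at h1
    exact hs.ne (abs_eq_zero.1 h1.symm)
  have hL := (D.diff (c s) (c 0) hne).hasFDerivAt
  refine D.grad (f := d (c s)) (fun x => ?_) hL rfl c1 hw ?_
  · have := D.tri (c s) (c 0) x
    linarith
  · filter_upwards [Ioi_mem_nhds hs] with t ht
    have ht' : s < t := ht
    rw [hc.eq, hc.eq, abs_of_neg (by linarith), abs_of_neg (by linarith)]
    ring

theorem IsLine.neg {c : ℝ → V} (hc : IsLine d c) : IsLine d fun t => c (-t) :=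
  ⟨fun s t => by rw [hc.eq, ← abs_neg]; congr 1; ring⟩

/-- **Busemann functions are differentiable.** -/
theorem hasFDerivAt_bus (D : DG d G) {b : V → ℝ} (hb : ∀ p q, b p - b q ≤ d p q) {c : ℝ → V}
    (hc : IsLine d c) (hbc : ∀ t, b (c t) = b (c 0) + t) {w : V} (c1 : HasDerivAt c w 0)
    (hw : G (c 0) w w = 1) : HasFDerivAt b (G (c 0) w) (c 0) := by
  set q := c 0 with hq
  -- the upper function
  have d2 : HasFDerivAt (fun x => b q + (d (c (-1)) x - 1)) (G q w) q := by
    have h1 := D.hasFDerivAt_dist hc c1 hw (s := -1) (by norm_num)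
    exact (h1.sub_const 1).const_add (b q)
  -- the lower function
  have c1' : HasDerivAt (fun t : ℝ => c (-t)) (-w) 0 := by
    have h1 : HasDerivAt (fun t : ℝ => -t) (-1) 0 := hasDerivAt_neg (0 : ℝ)
    have h2 : HasDerivAt c w (-(0 : ℝ)) := by rw [neg_zero]; exact c1
    have h3 : HasDerivAt (fun t : ℝ => c (-t)) ((-1 : ℝ) • w) 0 := h2.scomp (0 : ℝ) h1
    rwa [neg_one_smul] at h3
  have d1 : HasFDerivAt (fun x => b q - (d (c 1) x - 1)) (G q w) q := by
    have hw' : G ((fun t : ℝ => c (-t)) 0) (-w) (-w) = 1 := by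
      simp only [neg_zero, map_neg, neg_apply, neg_neg]
      exact hw
    have h1 := D.hasFDerivAt_dist hc.neg c1' hw' (s := -1) (by norm_num)
    simp only [neg_neg, neg_zero, map_neg] at h1
    have h2 := (h1.sub_const 1).const_sub (b q)
    rwa [neg_neg] at h2
  refine hasFDerivAt_squeeze (Eventually.of_forall fun x => ?_) (Eventually.of_forall fun x => ?_)
    ?_ ?_ d1 d2
  · have h1 := hb (c 1) x
    rw [hbc 1] at h1
    linarith
  · have h1 := hb x (c (-1))
    rw [hbc (-1), D.symm] at h1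
    linarith
  · have h1 : d (c 1) q = 1 := by rw [hq, hc.eq]; norm_num
    rw [h1]; ring
  · have h1 : d (c (-1)) q = 1 := by rw [hq, hc.eq]; norm_num
    rw [h1]; ring

end DG

/-! ### families -/

variable {B : Type*} [TopologicalSpace B]

/-- joint continuity from equicontinuity -/
theorem continuous_of_lip {d : V → V → ℝ} (hd : ∀ q, Continuous (d q)) (hd0 : ∀ q, d q q = 0)
    {b : B → V → ℝ} (hb : ∀ ξ p q, |b ξ p - b ξ q| ≤ d p q) (hξ : ∀ q, Continuous fun ξ => b ξ q) :
    Continuous fun p : B × V => b p.1 p.2 := by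
  rw [continuous_iff_continuousAt]
  rintro ⟨ξ, q⟩
  rw [ContinuousAt, tendsto_iff_dist_tendsto_zero]
  have h1 : Tendsto (fun p : B × V => d q p.2 + |b p.1 q - b ξ q|) (𝓝 (ξ, q)) (𝓝 0) := by
    have h2 : Continuous fun p : B × V => d q p.2 + |b p.1 q - b ξ q| :=
      ((hd q).comp continuous_snd).add ((((hξ q).comp continuous_fst).sub continuous_const).abs)
    have h3 := h2.tendsto (ξ, q)
    simpa [hd0] using h3
  refine squeeze_zero (fun _ => dist_nonneg) (fun p => ?_) h1
  rw [Real.dist_eq]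
  calc |b p.1 p.2 - b ξ q| ≤ |b p.1 p.2 - b p.1 q| + |b p.1 q - b ξ q| := abs_sub_le _ _ _
    _ ≤ d q p.2 + |b p.1 q - b ξ q| := by
      have := hb p.1 q p.2
      rw [abs_sub_comm] at this
      linarith

/-- **(R14) The Busemann functions form a `JC` family** if the unit fields `W ξ` do. -/
theorem jc_of_grad {G : V → V →L[ℝ] V →L[ℝ] ℝ} (hG : ContDiff ℝ ∞ G) {b : B → V → ℝ}
    {W : B → V → V} (hc : Continuous fun p : B × V => b p.1 p.2)
    (hd : ∀ ξ q, HasFDerivAt (b ξ) (G q (W ξ q)) q) (hW : JC W univ) : JC b univ := by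
  refine JC.of_hasFDerivAt (f1 := fun ξ q => G q (W ξ q)) hc.continuousOn
    (fun p _ => hd p.1 p.2) ?_
  exact JC.clm_apply (JC.of_contDiff hG isOpen_univ) hW

end Vale.Agent.P207.N3.H265
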